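import Vale.Agent.P207.N4.Dim
import Vale.Agent.P207.N4.H722.GeoIn
import Vale.Agent.P207.N4.H459.Inv
import Vale.Agent.P207.N4.H546.DirIn

/-!
# P207, line N4, row R19 (MASS), part (DIR)

The initial direction at `q = ft x` of the ray from `q` to `η = e x u`, in the frame `x`, is
`e₀ + (0, r₀ (U x + U (flip x)) u) + o(u)`.
-/

open Set Filter Topology Metric
open scoped ContDiff

noncomputable section

namespace Vale.Agent.P207.N4.H546

open Vale.Agent.P207.N3 Vale.Agent.P207.N3.H546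

variable [Dim]

open Vale.Agent.P207.N4.H76 (pk tl e0 sg)
open Vale.Agent.P207.N4.H722 (GeoIn HessIn)

/-! ### calculus -/

/-- moving the parameter and the point -/
theorem hasFDerivAt_move {Z E V W : Type} [TopologicalSpace Z] [NormedAddCommGroup E]
    [NormedSpace ℝ E] [NormedAddCommGroup V] [NormedSpace ℝ V] [NormedAddCommGroup W]
    [NormedSpace ℝ W] {F : Z → V → W} (hF : JC F univ) {η : E → Z} {P : E → V} {u₀ : E} {q₀ : V}
    {P' : E →L[ℝ] V} (hη : ContinuousAt η u₀) (hP : HasFDerivAt P P' u₀) (h0 : P u₀ = q₀) :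
    HasFDerivAt (fun u => F (η u) (P u) - F (η u) q₀) (fderiv ℝ (F (η u₀)) q₀ ∘L P') u₀ := by
  rw [hasFDerivAt_iff_isLittleO_nhds_zero]
  set H₀ := fderiv ℝ (F (η u₀)) q₀ with hH₀
  have hlin := (hasFDerivAt_iff_isLittleO_nhds_zero.1 hP)
  rw [Asymptotics.isLittleO_iff]
  intro c hc
  -- the constants
  set N := ‖P'‖ + 1 with hN
  have hNpos : 0 < N := by positivity
  set ε := c / (2 * N) with hε
  have hεpos : 0 < ε := by positivity
  have hcont : ContinuousAt (fun p : Z × V => fderiv ℝ (F p.1) p.2) (η u₀, q₀) :=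
    hF.fderiv.continuousOn.continuousAt univ_mem
  have h1 : ∀ᶠ p : Z × V in 𝓝 (η u₀, q₀), ‖fderiv ℝ (F p.1) p.2 - H₀‖ ≤ ε := by
    have h2 := Metric.continuousAt_iff'.1 hcont ε hεpos
    filter_upwards [h2] with p hp
    rw [dist_eq_norm] at hp
    exact hp.le
  rw [nhds_prod_eq] at h1
  obtain ⟨pa, hpa, pb, hpb, hab⟩ := eventually_prod_iff.1 h1
  obtain ⟨δ, hδ, hball⟩ := Metric.eventually_nhds_iff_ball.1 hpb
  -- the neighbourhood
  have e1 : ∀ᶠ v : E in 𝓝 0, pa (η (u₀ + v)) := by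
    have : ContinuousAt (fun v : E => η (u₀ + v)) 0 := by
      have h3 : ContinuousAt (fun v : E => u₀ + v) 0 := by fun_prop
      exact ContinuousAt.comp (f := fun v : E => u₀ + v) (by simpa using hη) h3
    exact (this.tendsto).eventually (by simpa using hpa)
  have hPc : ContinuousAt (fun v : E => P (u₀ + v)) 0 := by
    have h3 : ContinuousAt (fun v : E => u₀ + v) 0 := by fun_prop
    exact ContinuousAt.comp (f := fun v : E => u₀ + v) (by simpa using hP.continuousAt) h3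
  have e2 : ∀ᶠ v : E in 𝓝 0, P (u₀ + v) ∈ ball q₀ δ := by
    have h4 : ball q₀ δ ∈ 𝓝 (P (u₀ + 0)) := by
      rw [add_zero, h0]
      exact ball_mem_nhds _ hδ
    exact hPc.tendsto.eventually h4
  set c' := min 1 (c / (2 * (‖H₀‖ + 1))) with hc'
  have hc'pos : 0 < c' := by positivity
  have e3 := (Asymptotics.isLittleO_iff.1 hlin) hc'pos
  filter_upwards [e1, e2, e3] with v hv1 hv2 hv3
  have hseg : Convex ℝ (ball q₀ δ) := convex_ball _ _
  have hmv := hseg.norm_image_sub_le_of_norm_hasFDerivWithin_le' (f := F (η (u₀ + v)))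
    (f' := fun q => fderiv ℝ (F (η (u₀ + v))) q) (φ := H₀) (C := ε)
    (fun q _ => (hF.hasFDerivAt (mem_univ (η (u₀ + v), q))).hasFDerivWithinAt)
    (fun q hq => hab hv1 (hball q hq)) (mem_ball_self hδ) hv2
  have h5 : F (η (u₀ + v)) (P (u₀ + v)) - F (η (u₀ + v)) q₀ -
      (F (η u₀) (P u₀) - F (η u₀) q₀) - (H₀ ∘L P') v =
      (F (η (u₀ + v)) (P (u₀ + v)) - F (η (u₀ + v)) q₀ - H₀ (P (u₀ + v) - q₀)) +
        H₀ (P (u₀ + v) - P u₀ - P' v) := by
    rw [h0]
    simp only [sub_self, sub_zero, ContinuousLinearMap.coe_comp, Function.comp_apply, map_sub]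
    abel
  rw [h5]
  have h6 : ‖P (u₀ + v) - q₀‖ ≤ N * ‖v‖ := by
    rw [← h0]
    calc ‖P (u₀ + v) - P u₀‖ = ‖(P (u₀ + v) - P u₀ - P' v) + P' v‖ := by abel_nf
      _ ≤ c' * ‖v‖ + ‖P'‖ * ‖v‖ := (norm_add_le _ _).trans (add_le_add hv3 (P'.le_opNorm v))
      _ ≤ 1 * ‖v‖ + ‖P'‖ * ‖v‖ := by
        gcongr
        exact min_le_left _ _
      _ = N * ‖v‖ := by rw [hN]; ring
  calc ‖F (η (u₀ + v)) (P (u₀ + v)) - F (η (u₀ + v)) q₀ - H₀ (P (u₀ + v) - q₀) +
        H₀ (P (u₀ + v) - P u₀ - P' v)‖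
      ≤ ε * ‖P (u₀ + v) - q₀‖ + ‖H₀‖ * (c' * ‖v‖) :=
        (norm_add_le _ _).trans (add_le_add hmv
          ((H₀.le_opNorm _).trans (mul_le_mul_of_nonneg_left hv3 (norm_nonneg _))))
    _ ≤ ε * (N * ‖v‖) + ‖H₀‖ * (c / (2 * (‖H₀‖ + 1)) * ‖v‖) := by
        gcongr
        exact min_le_right _ _
    _ ≤ c / 2 * ‖v‖ + c / 2 * ‖v‖ := by
        have h7 : ε * (N * ‖v‖) = c / 2 * ‖v‖ := by
          rw [hε]
          field_simp
        have h8 : ‖H₀‖ * (c / (2 * (‖H₀‖ + 1)) * ‖v‖) ≤ c / 2 * ‖v‖ := by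
          have h9 : ‖H₀‖ / (‖H₀‖ + 1) ≤ 1 := by
            rw [div_le_one (by positivity)]
            linarith
          have h10 : ‖H₀‖ * (c / (2 * (‖H₀‖ + 1)) * ‖v‖) = ‖H₀‖ / (‖H₀‖ + 1) * (c / 2 * ‖v‖) := by
            field_simp
          rw [h10]
          calc ‖H₀‖ / (‖H₀‖ + 1) * (c / 2 * ‖v‖) ≤ 1 * (c / 2 * ‖v‖) := by gcongr
            _ = c / 2 * ‖v‖ := one_mul _
        rw [h7]
        linarith
    _ = c * ‖v‖ := by ring

/-! ### directions -/

variable {Γ X B : Type} [Group Γ] [MetricSpace X] [ProperSpace X] [MulAction Γ X]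
  [IsIsometricSMul Γ X] [TopologicalSpace B] [CompactSpace B] [T2Space B] [MulAction Γ B]
  [ContinuousConstSMul Γ B] {L : Leaf Γ X B} {V : Type} [NormedAddCommGroup V] [NormedSpace ℝ V]
  [FiniteDimensional ℝ V] (I : GeoIn L V)

/-- the vector of the space which represents a covector in the frame `x` -/
def toE (x : X) : (V →L[ℝ] ℝ) →L[ℝ] E3 :=
  ∑ i : Fin (Dim.m + 1), (ContinuousLinearMap.apply ℝ ℝ (I.E x (EuclideanSpace.single i 1))).smulRight
    (EuclideanSpace.single i (1 : ℝ) : E3)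

theorem toE_apply (x : X) (l : V →L[ℝ] ℝ) : toE I x l =
    ∑ i : Fin (Dim.m + 1), l (I.E x (EuclideanSpace.single i 1)) • (EuclideanSpace.single i (1 : ℝ) : E3) := by
  simp only [toE, _root_.sum_apply, ContinuousLinearMap.smulRight_apply,
    ContinuousLinearMap.apply_apply]

theorem inner_toE (x : X) (l : V →L[ℝ] ℝ) (c : E3) : inner ℝ (toE I x l) c = l (I.E x c) := by
  have hc : c = ∑ i : Fin (Dim.m + 1), c i • (EuclideanSpace.single i (1 : ℝ) : E3) := by
    ext j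
    simp [Finset.sum_apply, Pi.single_apply]
  rw [toE_apply]
  conv_rhs => rw [hc]
  rw [map_sum, map_sum, sum_inner]
  refine Finset.sum_congr rfl fun i _ => ?_
  rw [inner_smul_left, EuclideanSpace.inner_single_left, map_smul, map_smul]
  simp [mul_comm]

/-- the direction at the foot point of `x` of the ray which ends at `η`, in the frame `x` -/
def dirE (x : X) (η : B) : E3 := -toE I x (fderiv ℝ (I.b η) (I.S.ft x))

theorem inv' : H459.InvThm := H459.invThm

theorem E_dirE (x : X) (η : B) : I.E x (dirE I x η) = -I.vel η (I.S.ft x) := by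
  obtain ⟨c, hc⟩ := (I.E_bij x).2 (-I.vel η (I.S.ft x))
  rw [← hc]
  congr 1
  refine ext_inner_right ℝ fun v => ?_
  rw [dirE, inner_neg_left, inner_toE, I.b_fderiv inv', ← I.G_E, hc, map_neg]
  rfl

theorem dirE_ep (x : X) : dirE I x (L.ep x) = e0 := by
  apply (I.E_bij x).1
  rw [E_dirE, ← GeoIn.em_flip, ← I.ft_flip, I.vel_eq inv', I.E_flip_e0, neg_neg]

theorem norm_dirE (x : X) (η : B) : ‖dirE I x η‖ = 1 := by
  have h := I.G_E x (dirE I x η) (dirE I x η)
  rw [E_dirE, map_neg, real_inner_self_eq_norm_sq] at h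
  have h1 := I.G_vel inv' η (I.S.ft x)
  have h2 : ‖dirE I x η‖ ^ 2 = 1 := by
    rw [← h, ← h1, map_neg]
    exact neg_neg _
  nlinarith [norm_nonneg (dirE I x η)]

/-- the points of the disc -/
theorem hasFDerivAt_disc (x : X) : HasFDerivAt (fun u : E2 => I.S.A x (0, u))
    ((fderiv ℝ (I.S.A x) 0) ∘L (ContinuousLinearMap.inr ℝ ℝ E2)) 0 := by
  have h1 : HasFDerivAt (I.S.A x) (fderiv ℝ (I.S.A x) 0) (ContinuousLinearMap.inr ℝ ℝ E2 0) := by
    rw [map_zero]
    exact (I.S.A_jc.differentiableAt (I.S.mem_S x 0 I.S.zero_mem)).hasFDerivAt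
  exact h1.comp (0 : E2) (ContinuousLinearMap.inr ℝ ℝ E2).hasFDerivAt

/-- at the point `u` of the disc the two directions are opposite -/
theorem fderiv_b_disc (x : X) {u : E2} (hu : u ∈ closedBall (0 : E2) 3) :
    fderiv ℝ (I.b (L.e x u)) (I.S.A x (0, u)) = -fderiv ℝ (I.b (L.em x)) (I.S.A x (0, u)) := by
  have h1 : L.e x u = I.S.line (L.em x) (I.S.A x (0, u)) := by
    rw [← I.e_eq x u hu, H459.Slice.e, I.em_eq]
  rw [I.b_fderiv inv', I.b_fderiv inv', h1, I.vel_line inv', map_neg]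

/-- the second derivative of `b_ξ + b_η` at the foot point -/
def hs (x : X) : V →L[ℝ] V →L[ℝ] ℝ :=
  fderiv ℝ (fderiv ℝ (I.b (L.em x))) (I.S.ft x) + fderiv ℝ (fderiv ℝ (I.b (L.ep x))) (I.S.ft x)

theorem b_contDiff (ξ : B) : ContDiff ℝ ∞ (I.b ξ) :=
  contDiff_iff_contDiffAt.2 fun q => I.b_jc.contDiffAt (mem_univ (ξ, q))

theorem b_diff (ξ : B) : Differentiable ℝ (I.b ξ) := (b_contDiff I ξ).differentiable (by simp)

theorem fb_contDiff (ξ : B) : ContDiff ℝ ∞ (fderiv ℝ (I.b ξ)) :=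
  (b_contDiff I ξ).fderiv_right (by simp)

theorem fb_diff (ξ : B) : Differentiable ℝ (fderiv ℝ (I.b ξ)) :=
  (fb_contDiff I ξ).differentiable (by simp)

theorem hs_eq (x : X) : hs I x =
    fderiv ℝ (fderiv ℝ (fun q => I.b (L.em x) q + I.b (L.ep x) q)) (I.S.ft x) := by
  have h1 : fderiv ℝ (fun q => I.b (L.em x) q + I.b (L.ep x) q) =
      fun q => fderiv ℝ (I.b (L.em x)) q + fderiv ℝ (I.b (L.ep x)) q := by
    funext q
    exact fderiv_fun_add (b_diff I _ q) (b_diff I _ q)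
  rw [h1]
  exact (fderiv_fun_add (fb_diff I _ _) (fb_diff I _ _)).symm

theorem hs_symm (x : X) (v w : V) : hs I x v w = hs I x w v := by
  have h : ContDiffAt ℝ ∞ (fun q => I.b (L.em x) q + I.b (L.ep x) q) (I.S.ft x) :=
    ((b_contDiff I _).add (b_contDiff I _)).contDiffAt
  have h1 := h.isSymmSndFDerivAt (by
    rw [minSmoothness_of_isRCLikeNormedField]
    change ((2 : ℕ∞) : WithTop ℕ∞) ≤ ((⊤ : ℕ∞) : WithTop ℕ∞)
    exact WithTop.coe_le_coe.2 le_top)
  rw [hs_eq]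
  exact h1 v w

/-- on the geodesic of `x` the two gradients are opposite -/
theorem grad_sum (x : X) (t : ℝ) : fderiv ℝ (I.b (L.em x)) (I.S.ft (L.φ t x)) +
    fderiv ℝ (I.b (L.ep x)) (I.S.ft (L.φ t x)) = 0 := by
  have h1 := I.line_eq (L.φ t x)
  rw [L.em_φ, GeoIn.ep_φ] at h1
  rw [I.b_fderiv inv', I.b_fderiv inv', ← h1, I.vel_line inv', map_neg]
  exact add_neg_cancel _

theorem hs_e0 (x : X) : hs I x (I.E x e0) = 0 := by
  have h0 : I.S.ft (L.φ 0 x) = I.S.ft x := by rw [L.φ_zero]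
  have h1 := I.hasDerivAt_ft x 0
  rw [L.φ_zero] at h1
  have h2 : HasFDerivAt (fun q => fderiv ℝ (I.b (L.em x)) q + fderiv ℝ (I.b (L.ep x)) q)
      (hs I x) (I.S.ft (L.φ 0 x)) := by
    rw [h0]
    exact (fb_diff I _ _).hasFDerivAt.add (fb_diff I _ _).hasFDerivAt
  have h3 := h2.comp_hasDerivAt (0 : ℝ) h1
  have h4 : HasDerivAt ((fun q => fderiv ℝ (I.b (L.em x)) q + fderiv ℝ (I.b (L.ep x)) q) ∘
      fun s => I.S.ft (L.φ s x)) 0 0 := by
    have : ((fun q => fderiv ℝ (I.b (L.em x)) q + fderiv ℝ (I.b (L.ep x)) q) ∘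
        fun s => I.S.ft (L.φ s x)) = fun _ => 0 := funext fun t => grad_sum I x t
    rw [this]
    exact hasDerivAt_const _ _
  exact h3.unique h4

theorem inner_pk (s t : ℝ) (u v : E2) : inner ℝ (pk s u) (pk t v) = s * t + inner ℝ u v := by
  simp only [PiLp.inner_apply, Fin.sum_univ_succ, RCLike.inner_apply, conj_trivial, H76.pk_zero,
    H76.pk_succ]
  ring

theorem toE_hs {M : Metr L} (H : HessIn I M) (x : X) (v : E2) :
    toE I x (hs I x (I.E x (pk 0 v))) = pk 0 (M.U x v + M.U (L.flip x) v) := by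
  refine ext_inner_right ℝ fun c => ?_
  rw [inner_toE]
  have hc : c = c 0 • e0 + pk 0 (tl c) := by
    conv_lhs => rw [← H76.pk_tl c]
    rw [← H76.pk_zero_right, ← H76.pk_add, add_zero, zero_add]
  conv_lhs => rw [hc]
  rw [map_add, map_add, map_smul, map_smul, hs_symm, hs_e0, hs_eq, H.hess]
  conv_rhs => rw [← H76.pk_tl c, inner_pk]
  simp

/-- **(DIR)** the direction of the ray to `e x u`, to first order in `u` -/
theorem hasFDerivAt_dirE {M : Metr L} (H : HessIn I M) (x : X) :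
    HasFDerivAt (fun u => dirE I x (L.e x u))
      (pk0 ∘L (I.r₀ • (M.U x + M.U (L.flip x)))) 0 := by
  set q₀ := I.S.ft x with hq₀
  have hP := hasFDerivAt_disc I x
  set P' : E2 →L[ℝ] V := (fderiv ℝ (I.S.A x) 0) ∘L (ContinuousLinearMap.inr ℝ ℝ E2) with hP'
  have hP0 : I.S.A x (0, (0 : E2)) = q₀ := I.S.A_zero x
  have hη : ContinuousAt (fun u : E2 => L.e x u) 0 := by
    have h1 : ContinuousOn (fun u : E2 => L.e x u) (closedBall 0 3) :=
      L.e_cont.comp (f := fun u : E2 => (x, u)) (by fun_prop) fun u hu => ⟨mem_univ _, hu⟩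
    exact h1.continuousAt (closedBall_mem_nhds _ (by norm_num))
  -- the two expansions
  have h1 := hasFDerivAt_move (F := fun ξ => fderiv ℝ (I.b ξ)) I.b_jc.fderiv hη hP hP0
  have h2 : HasFDerivAt (fun u : E2 => fderiv ℝ (I.b (L.em x)) (I.S.A x (0, u)))
      (fderiv ℝ (fderiv ℝ (I.b (L.em x))) q₀ ∘L P') 0 := by
    have h3 : HasFDerivAt (fderiv ℝ (I.b (L.em x))) (fderiv ℝ (fderiv ℝ (I.b (L.em x))) q₀)
        (I.S.A x (0, (0 : E2))) := by
      rw [hP0]
      exact (fb_diff I _ _).hasFDerivAt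
    exact h3.comp (0 : E2) hP
  have h4 := h1.add h2
  have h5 : HasFDerivAt (fun u => -fderiv ℝ (I.b (L.e x u)) q₀) (hs I x ∘L P') 0 := by
    have h6 : fderiv ℝ (fderiv ℝ (I.b (L.e x 0))) q₀ ∘L P' +
        fderiv ℝ (fderiv ℝ (I.b (L.em x))) q₀ ∘L P' = hs I x ∘L P' := by
      rw [hs, L.e_zero, add_comm]
      rfl
    rw [← h6]
    refine h4.congr_of_eventuallyEq ?_
    filter_upwards [closedBall_mem_nhds (0 : E2) (by norm_num : (0 : ℝ) < 3)] with u hu
    simp only [Pi.add_apply]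
    rw [fderiv_b_disc I x hu]
    abel
  have h7 := (toE I x).hasFDerivAt.comp (0 : E2) h5
  have h8 : (fun u => dirE I x (L.e x u)) =
      (toE I x) ∘ fun u => -fderiv ℝ (I.b (L.e x u)) q₀ := by
    funext u
    simp only [Function.comp_apply, map_neg]
    rfl
  have h9 : (toE I x) ∘L (hs I x ∘L P') = pk0 ∘L (I.r₀ • (M.U x + M.U (L.flip x))) := by
    ext1 u
    have h10 : P' u = I.E x (pk 0 (I.r₀ • u)) := I.A_fderiv x 0 u
    simp only [ContinuousLinearMap.coe_comp, Function.comp_apply]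
    rw [h10, toE_hs I H]
    simp only [map_smul, pk0_apply, _root_.smul_apply, _root_.add_apply, smul_add]
  rw [h8, ← h9]
  exact h7

end Vale.Agent.P207.N4.H546
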